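import Crest.Agent.R331.I.Basic

/-! Row 331, block Stat: commutation relations of the conditional expectations. -/

set_option autoImplicit false

noncomputable section

namespace Crest.Agent.R331

open Matrix Crest.MathPhysics.Bosonic Crest.Agent.Lib.QEnt
open scoped ComplexOrder Kronecker

variable {α β γ δ : Type*} [Fintype α] [Fintype β] [Fintype γ] [Fintype δ]
  [DecidableEq α] [DecidableEq β] [DecidableEq γ] [DecidableEq δ]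
  {U : Matrix (γ × δ) (α × β) ℂ} {a QA : Matrix α α ℂ} {b QB : Matrix β β ℂ} {c : Matrix γ γ ℂ}
  {c' : Matrix δ δ ℂ} {rA rB : ℝ}

omit [Fintype γ] [Fintype δ] [DecidableEq α] [DecidableEq β] [DecidableEq γ] [DecidableEq δ] in
theorem st_sw_mul (U : Matrix (γ × δ) (α × β) ℂ) (X : Matrix α α ℂ) (Y : Matrix β β ℂ) :
    sw U * (Y ⊗ₖ X) = sw (U * (X ⊗ₖ Y)) := by
  ext i ⟨k, l⟩
  simp only [sw, Matrix.mul_apply, submatrix_apply, id, Prod.swap, Fintype.sum_prod_type, kronecker_apply]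
  rw [Finset.sum_comm]
  simp only [mul_comm]

omit [Fintype α] [Fintype β] [DecidableEq α] [DecidableEq β] [DecidableEq γ] [DecidableEq δ] in
theorem st_mul_sw (Z : Matrix (γ × δ) (γ × δ) ℂ) (U : Matrix (γ × δ) (α × β) ℂ) : Z * sw U = sw (Z * U) := rfl

theorem st_kron_neg {m n : Type*} (X : Matrix m m ℂ) (Y : Matrix n n ℂ) : X ⊗ₖ (-Y) = -(X ⊗ₖ Y) := by
  ext ⟨i, j⟩ ⟨k, l⟩
  simp

theorem st_sub_kron {m n : Type*} (X X' : Matrix m m ℂ) (Y : Matrix n n ℂ) : (X - X') ⊗ₖ Y = X ⊗ₖ Y - X' ⊗ₖ Y := by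
  ext ⟨i, j⟩ ⟨k, l⟩
  simp [sub_mul]

theorem BS.swap' (h : BS U a QA b QB c c' rA rB) : BS (sw U) b QB a QA c (-c') rB rA where
  iso := sw_iso h.iso
  sq := by linarith [h.sq]
  lowA := by rw [st_sw_mul, h.lowB, st_mul_sw, st_kron_neg, smul_neg, sub_neg_eq_add]
  lowB := by rw [st_sw_mul, h.lowA, st_mul_sw, st_kron_neg, smul_neg, ← sub_eq_add_neg]
  upA := by rw [st_mul_sw, st_sw_mul, st_sw_mul, st_kron_neg, smul_neg, sub_neg_eq_add, h.upB]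
  upB := by rw [st_mul_sw, st_sw_mul, st_sw_mul, st_kron_neg, smul_neg, ← sub_eq_add_neg, h.upA]
  QAh := h.QBh
  QAi := h.QBi
  QAa := h.QBb
  QBh := h.QAh
  QBi := h.QAi
  QBb := h.QAa

omit [DecidableEq α] [DecidableEq β] [DecidableEq γ] [DecidableEq δ] in
theorem st_trace_sw (U : Matrix (γ × δ) (α × β) ℂ) (X : Matrix α α ℂ) (Y : Matrix β β ℂ)
    (Z : Matrix (γ × δ) (γ × δ) ℂ) :
    ((Y ⊗ₖ X) * ((sw U)ᴴ * Z * sw U)).trace = ((X ⊗ₖ Y) * (Uᴴ * Z * U)).trace := by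
  rw [trace_mul_comm, Matrix.mul_assoc, st_sw_mul, Matrix.mul_assoc, st_mul_sw, trace_mul_comm (X ⊗ₖ Y),
    Matrix.mul_assoc, Matrix.mul_assoc]
  generalize Z * (U * (X ⊗ₖ Y)) = W
  simp only [Matrix.trace, diag_apply, Matrix.mul_apply, sw, conjTranspose_apply, submatrix_apply, id]
  exact Fintype.sum_equiv (Equiv.prodComm _ _) _ _ fun _ => rfl

/-- the mode `a` seen from the outputs -/
def stA (c : Matrix γ γ ℂ) (c' : Matrix δ δ ℂ) (rA rB : ℝ) : Matrix (γ × δ) (γ × δ) ℂ :=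
  (rA : ℂ) • (c ⊗ₖ (1 : Matrix δ δ ℂ)) - (rB : ℂ) • ((1 : Matrix γ γ ℂ) ⊗ₖ c')

theorem BS.adj_c (h : BS U a QA b QB c c' rA rB) {ρB : Matrix β β ℂ} (hB : ρB.trace = 1) :
    adj U ρB c = (rA : ℂ) • a + ((rB : ℂ) * (ρB * b).trace) • (1 : Matrix α α ℂ) := by
  have h1 : (c ⊗ₖ (1 : Matrix δ δ ℂ)) * U =
      U * ((rA : ℂ) • (a ⊗ₖ (1 : Matrix β β ℂ)) + (rB : ℂ) • ((1 : Matrix α α ℂ) ⊗ₖ b)) := by
    have h2 : (rA : ℂ) ^ 2 + (rB : ℂ) ^ 2 = 1 := by exact_mod_cast h.sq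
    rw [Matrix.mul_add, Matrix.mul_smul, Matrix.mul_smul, h.lowA, h.lowB, ← Matrix.smul_mul, ← Matrix.smul_mul,
      ← Matrix.add_mul]
    congr 1
    match_scalars
    · linear_combination -h2
    · ring
  rw [adj, Matrix.mul_assoc Uᴴ, h1, ← Matrix.mul_assoc Uᴴ, h.iso, Matrix.one_mul, Matrix.mul_add, Matrix.mul_smul,
    Matrix.mul_smul, ← mul_kronecker_mul, ← mul_kronecker_mul, ptr2_add, ptr2_smul, ptr2_smul, ptr2_kron, ptr2_kron,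
    Matrix.one_mul, Matrix.mul_one, Matrix.mul_one, hB, one_smul, smul_smul]

theorem BS.up' (h : BS U a QA b QB c c' rA rB) : (a ⊗ₖ (1 : Matrix β β ℂ)) * Uᴴ =
    Uᴴ * stA c c' rA rB - (QA ⊗ₖ (1 : Matrix β β ℂ)) * (Uᴴ * stA c c' rA rB) := by
  have h1 := congrArg conjTranspose h.upA
  simp only [conjTranspose_mul, conjTranspose_conjTranspose, conjTranspose_kronecker, conjTranspose_one,
    conjTranspose_sub, h.QAh] at h1
  rw [← h1, st_sub_kron, one_kronecker_one, Matrix.sub_mul, Matrix.one_mul, stA]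

theorem BS.comm_adj (h : BS U a QA b QB c c' rA rB) (ρB : Matrix β β ℂ) (H : Matrix γ γ ℂ) :
    a * adj U ρB H - adj U ρB H * a = (rA : ℂ) • adj U ρB (c * H - H * c) -
      QA * ptr2 (((1 : Matrix α α ℂ) ⊗ₖ ρB) * (Uᴴ * stA c c' rA rB * (H ⊗ₖ (1 : Matrix δ δ ℂ)) * U)) := by
  have e : ∀ (X : Matrix α α ℂ) M, (X ⊗ₖ (1 : Matrix β β ℂ)) * (((1 : Matrix α α ℂ) ⊗ₖ ρB) * M) =
      ((1 : Matrix α α ℂ) ⊗ₖ ρB) * ((X ⊗ₖ (1 : Matrix β β ℂ)) * M) := fun X M => by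
    simp only [← Matrix.mul_assoc, ← mul_kronecker_mul, Matrix.one_mul, Matrix.mul_one]
  have e2 : stA c c' rA rB * (H ⊗ₖ (1 : Matrix δ δ ℂ)) - (H ⊗ₖ (1 : Matrix δ δ ℂ)) * stA c c' rA rB =
      (rA : ℂ) • ((c * H - H * c) ⊗ₖ (1 : Matrix δ δ ℂ)) := by
    simp only [stA, Matrix.sub_mul, Matrix.mul_sub, Matrix.smul_mul, Matrix.mul_smul, ← mul_kronecker_mul,
      Matrix.one_mul, Matrix.mul_one, st_sub_kron, smul_sub]
    abel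
  rw [adj, adj, ← ptr2_mul_left, ← ptr2_mul_right, ← ptr2_mul_left, ← ptr2_smul, ← ptr2_sub, ← ptr2_sub, e, e,
    ← Matrix.mul_smul, Matrix.mul_assoc _ _ (a ⊗ₖ _), ← Matrix.mul_sub, ← Matrix.mul_sub, ← Matrix.smul_mul,
    ← Matrix.mul_smul, ← e2]
  congr 2
  rw [Matrix.mul_assoc _ U, h.lowA, ← Matrix.mul_assoc, ← Matrix.mul_assoc, h.up', ← stA]
  simp only [Matrix.sub_mul, Matrix.mul_sub, Matrix.mul_assoc]
  abel

theorem BS.df_adj (h : BS U a QA b QB c c' rA rB) {ρA : Matrix α α ℂ} (hA : ρA.IsHermitian) (ρB : Matrix β β ℂ)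
    (t : ℝ) (Y : Matrix γ γ ℂ) : ((df ρA t a)ᴴ * adj U ρB Y).trace =
      rA * (t * (out U ρA ρB * (Y * cᴴ)).trace - (t + 1) * (out U ρA ρB * (cᴴ * Y)).trace) +
        rB * ((ρA ⊗ₖ ρB) * (Uᴴ * (Y ⊗ₖ c'ᴴ) * U)).trace -
        t * ((ρA ⊗ₖ ρB) * (Uᴴ * ((Y ⊗ₖ (1 : Matrix δ δ ℂ)) * (stA c c' rA rB)ᴴ) * U *
          (QA ⊗ₖ (1 : Matrix β β ℂ)))).trace := by
  have h1 := congrArg conjTranspose h.lowA
  have h2 := congrArg conjTranspose h.up'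
  simp only [conjTranspose_mul, conjTranspose_conjTranspose, conjTranspose_kronecker, conjTranspose_one,
    conjTranspose_sub, h.QAh] at h2
  rw [conjTranspose_mul, conjTranspose_mul, conjTranspose_kronecker, conjTranspose_one, ← stA] at h1
  have h3 : ((aᴴ * ρA) ⊗ₖ ρB * (Uᴴ * (Y ⊗ₖ (1 : Matrix δ δ ℂ)) * U)).trace =
      ((ρA ⊗ₖ ρB) * (Uᴴ * (Y ⊗ₖ (1 : Matrix δ δ ℂ)) * (U * (aᴴ ⊗ₖ (1 : Matrix β β ℂ))))).trace := by
    rw [← Matrix.one_mul ρB, mul_kronecker_mul, Matrix.mul_assoc, trace_mul_comm, Matrix.one_mul]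
    simp only [Matrix.mul_assoc]
  have h4 : ((ρA * aᴴ) ⊗ₖ ρB * (Uᴴ * (Y ⊗ₖ (1 : Matrix δ δ ℂ)) * U)).trace =
      ((ρA ⊗ₖ ρB) * ((aᴴ ⊗ₖ (1 : Matrix β β ℂ)) * Uᴴ * (Y ⊗ₖ (1 : Matrix δ δ ℂ)) * U)).trace := by
    rw [← Matrix.mul_one ρB, mul_kronecker_mul, Matrix.mul_one]
    simp only [Matrix.mul_assoc]
  have h5 : (Y ⊗ₖ (1 : Matrix δ δ ℂ)) * (stA c c' rA rB)ᴴ =
      (rA : ℂ) • ((Y * cᴴ) ⊗ₖ (1 : Matrix δ δ ℂ)) - (rB : ℂ) • (Y ⊗ₖ c'ᴴ) := by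
    simp [stA, Matrix.mul_sub, conjTranspose_kronecker, ← mul_kronecker_mul]
  have h6 : (stA c c' rA rB)ᴴ * (Y ⊗ₖ (1 : Matrix δ δ ℂ)) =
      (rA : ℂ) • ((cᴴ * Y) ⊗ₖ (1 : Matrix δ δ ℂ)) - (rB : ℂ) • (Y ⊗ₖ c'ᴴ) := by
    simp [stA, Matrix.sub_mul, conjTranspose_kronecker, ← mul_kronecker_mul]
  rw [df, conjTranspose_sub, conjTranspose_smul, conjTranspose_smul, conjTranspose_mul, conjTranspose_mul, hA.eq,
    Matrix.sub_mul, Matrix.smul_mul, Matrix.smul_mul, trace_sub, trace_smul, trace_smul, trace_mul_adj, trace_mul_adj,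
    trace_out_mul, trace_out_mul, trace_out_mul, trace_out_mul, h3, h4, h1, h2, Matrix.mul_assoc Uᴴ (stA _ _ _ _)ᴴ, h6,
    Matrix.mul_sub, ← Matrix.mul_assoc _ (_ * U), ← Matrix.mul_assoc _ _ U, Matrix.mul_assoc Uᴴ, Matrix.mul_sub,
    trace_sub]
  generalize (ρA ⊗ₖ ρB * (Uᴴ * (Y ⊗ₖ 1 * (stA c c' rA rB)ᴴ) * U * QA ⊗ₖ 1)).trace = e
  simp only [h5, Matrix.mul_sub, Matrix.sub_mul, Matrix.mul_smul, Matrix.smul_mul, trace_sub, trace_smul, smul_eq_mul,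
    Complex.star_def, Complex.conj_ofReal]
  push_cast
  ring

end Crest.Agent.R331

end
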